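import Mathlib
import Vale.Agent.P043.Defs
import Vale.Agent.P043.Euclid
import Vale.Agent.P043.Main

open MeasureTheory Vale.Agent.P043

theorem Vale.Agent.Results.P043.AllD.result (d : ℕ) (hd : 3 ≤ d) :
    (∃ F : Finset (Fin d → ℤ), F.Nonempty ∧
      (∃ A : Set (Fin d → ℤ), Tiles A (F : Set (Fin d → ℤ))) ∧
      ∀ A : Set (Fin d → ℤ), Tiles A (F : Set (Fin d → ℤ)) → ¬ Periodic A) ∧
    (∃ Ω : Set (Fin d → ℝ), Bornology.IsBounded Ω ∧ MeasurableSet Ω ∧ 0 < volume Ω ∧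
      (∃ A : Set (Fin d → ℝ), TilesR A Ω) ∧
      ∀ A : Set (Fin d → ℝ), TilesR A Ω → ¬ PeriodicR A) :=
  final_of_system d (by omega) (aperSystem_lift aperSystem_G3 d hd)
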